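import Vale.Agent.H24.GSH.Defs

/-! P329 rows N, N2 (from the criterion, row C, as a hypothesis). -/

namespace Vale.Agent.H24.GSH.N
open Vale.Agent.H24.GSH

/-- the statement of row C -/
def Criterion : Prop :=
  ∀ {α Q : Type} [Fintype α] [DecidableEq α] [Fintype Q] [LinearOrder Q]
    (δ : Option Q → α → Option Q), Mono (fun q a => δ (some q) a) → ∀ (i j : Option Q),
    H 1 {w : List α | w.foldl δ i = j}

theorem foldl_inv {n : ℕ} {α : Type} (φ : α → Equiv.Perm (Option (Fin n))) (w : List α)
    (i : Option (Fin n)) :
    w.foldl (fun x a => (φ a)⁻¹ x) i = ((w.map φ).prod)⁻¹ i := by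
  induction w generalizing i with
  | nil => simp
  | cons a w ih =>
    rw [List.foldl_cons, ih, List.map_cons, List.prod_cons, mul_inv_rev, Equiv.Perm.mul_apply]

/-- ROW N (permutation groups generated by letters that are order preserving off the base point) -/
theorem perm_result_of (hC : Criterion) {n : ℕ} {α : Type} [Fintype α] [DecidableEq α]
    (φ : α → Equiv.Perm (Option (Fin n)))
    (hφ : ∀ a (p q p' q' : Fin n), p < q → φ a (some p) = some p' → φ a (some q) = some q' →
      p' < q') (T : Set (Equiv.Perm (Option (Fin n)))) :
    H 1 {w : List α | (w.map φ).prod ∈ T} := by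
  have hm : Mono (fun (q : Fin n) a => (fun (x : Option (Fin n)) a => (φ a)⁻¹ x) (some q) a) := by
    intro a p q p' q' hpq hp hq
    have hp' : φ a (some p') = some p := by
      have := congrArg (φ a) hp
      simpa using this.symm
    have hq' : φ a (some q') = some q := by
      have := congrArg (φ a) hq
      simpa using this.symm
    rcases lt_trichotomy p' q' with h | h | h
    · exact h
    · subst h
      rw [hp'] at hq'
      simp only [Option.some.injEq] at hq'
      exact absurd hq' hpq.ne
    · exact absurd (hφ a q' p' q p h hq' hp') (not_lt.mpr hpq.le)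
  have h1 : ∀ σ : Equiv.Perm (Option (Fin n)), H 1 {w : List α | (w.map φ).prod = σ} := by
    intro σ
    have h2 : H 1 (⋂ i : Option (Fin n), {w : List α | w.foldl (fun x a => (φ a)⁻¹ x) i = σ⁻¹ i}) :=
      H_iInter _ (fun i => hC _ hm i _)
    convert h2 using 1
    ext w
    simp only [Set.mem_setOf_eq, Set.mem_iInter, foldl_inv]
    constructor
    · intro h i; rw [h]
    · intro h
      have : ((w.map φ).prod)⁻¹ = σ⁻¹ := Equiv.ext h
      exact inv_injective this
  have h3 := H_iUnion_prop (fun σ : Equiv.Perm (Option (Fin n)) => σ ∈ T)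
    (fun σ => {w : List α | (w.map φ).prod = σ}) (fun σ _ => h1 σ)
  convert h3 using 1
  ext w
  simp

/-- ROW N2: all of `S_{n+1}`, letters = all transpositions of the base point -/
theorem star_transpositions_of (hC : Criterion) {n : ℕ} (T : Set (Equiv.Perm (Option (Fin n)))) :
    H 1 {w : List (Fin n) | (w.map fun i => Equiv.swap none (some i)).prod ∈ T} := by
  apply perm_result_of hC
  intro a p q p' q' hpq hp hq
  have key : ∀ r r' : Fin n, Equiv.swap none (some a) (some r) = some r' → r' = r := by
    intro r r' h
    by_cases hra : r = a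
    · subst hra
      simp at h
    · rw [Equiv.swap_apply_of_ne_of_ne (by simp) (by simpa using hra)] at h
      simpa using h.symm
  rw [key _ _ hp, key _ _ hq]
  exact hpq

end Vale.Agent.H24.GSH.N
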