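import Vale.Agent.H7.GSH.N

/-! P329: counter-free versions of rows N, and the 3-cycle family. -/

namespace Vale.Agent.H24.GSH.NCF
open Vale.Agent.H24.GSH

/-- counter-free partial automaton -/
def CF {α Q : Type} (δ : Q → α → Option Q) : Prop :=
  ∀ (w : List α) (q : Q) (n : ℕ), run δ q (List.replicate (n + 1) w).flatten = some q →
    run δ q w = some q

/-- the criterion for counter-free partial automata -/
def CriterionCF : Prop :=
  ∀ {α Q : Type} [Fintype α] [DecidableEq α] [Fintype Q] [LinearOrder Q]
    (δ : Option Q → α → Option Q), CF (fun q a => δ (some q) a) → ∀ (i j : Option Q),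
    H 1 {w : List α | w.foldl δ i = j}

theorem run_append' {α Q : Type} (δ : Q → α → Option Q) (u v : List α) (q : Q) :
    run δ q (u ++ v) = (run δ q u).bind fun r => run δ r v := by
  induction u generalizing q with
  | nil => simp [run]
  | cons a u ih =>
    simp only [List.cons_append, run]
    cases h : δ q a with
    | none => simp
    | some r => simp [ih]

/-- partial maps which never go up are counter-free -/
theorem CF_of_le {α Q : Type} [LinearOrder Q] (δ : Q → α → Option Q)
    (h : ∀ a q q', δ q a = some q' → q' ≤ q) : CF δ := by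
  have hrun : ∀ (w : List α) (q q' : Q), run δ q w = some q' → q' ≤ q := by
    intro w
    induction w with
    | nil => intro q q' hq; simp only [run, Option.some.injEq] at hq; exact hq.ge
    | cons a w ih =>
      intro q q' hq
      simp only [run] at hq
      cases hr : δ q a with
      | none => rw [hr] at hq; simp at hq
      | some r =>
        rw [hr] at hq
        simp only [Option.bind_some] at hq
        exact (ih r q' hq).trans (h a q r hr)
  intro w q n hw
  rw [List.replicate_succ, List.flatten_cons, run_append'] at hw
  cases hr : run δ q w with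
  | none => rw [hr] at hw; simp at hw
  | some r =>
    rw [hr] at hw
    simp only [Option.bind_some] at hw
    have h1 := hrun _ _ _ hr
    have h2 := hrun _ _ _ hw
    rw [le_antisymm h1 h2]

/-- permutation groups, counter-free version; the machine is `x ↦ (φ a)⁻¹ x` -/
theorem perm_result_cf (hC : CriterionCF) {n : ℕ} {α : Type} [Fintype α] [DecidableEq α]
    (φ : α → Equiv.Perm (Option (Fin n)))
    (hφ : CF (fun (q : Fin n) a => (φ a)⁻¹ (some q))) (T : Set (Equiv.Perm (Option (Fin n)))) :
    H 1 {w : List α | (w.map φ).prod ∈ T} := by
  have h1 : ∀ σ : Equiv.Perm (Option (Fin n)), H 1 {w : List α | (w.map φ).prod = σ} := by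
    intro σ
    have h2 : H 1 (⋂ i : Option (Fin n), {w : List α | w.foldl (fun x a => (φ a)⁻¹ x) i = σ⁻¹ i}) :=
      H_iInter _ (fun i => hC _ hφ i _)
    convert h2 using 1
    ext w
    simp only [Set.mem_ofPred_eq, Set.mem_iInter, N.foldl_inv]
    constructor
    · intro h i; rw [h]
    · intro h
      have : ((w.map φ).prod)⁻¹ = σ⁻¹ := Equiv.ext h
      exact inv_injective this
  have h3 := H_iUnion_prop (fun σ : Equiv.Perm (Option (Fin n)) => σ ∈ T)
    (fun σ => {w : List α | (w.map φ).prod = σ}) (fun σ _ => h1 σ)
  convert h3 using 1
  ext w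
  simp

/-- permutation groups generated by letters which never go down off the base point -/
theorem perm_result_le (hC : CriterionCF) {n : ℕ} {α : Type} [Fintype α] [DecidableEq α]
    (φ : α → Equiv.Perm (Option (Fin n)))
    (hφ : ∀ a (p p' : Fin n), φ a (some p) = some p' → p ≤ p')
    (T : Set (Equiv.Perm (Option (Fin n)))) :
    H 1 {w : List α | (w.map φ).prod ∈ T} := by
  refine perm_result_cf hC φ (CF_of_le _ ?_) T
  intro a q q' hq
  apply hφ a q' q
  have := congrArg (φ a) hq
  simpa using this.symm

/-- the 3-cycle `base → i → j → base` -/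
def cyc {n : ℕ} (i j : Fin n) : Equiv.Perm (Option (Fin n)) :=
  Equiv.swap none (some j) * Equiv.swap none (some i)

/-- alternating groups `A_(n+1)`, letters = the 3-cycles `base → i → j → base`, `i < j` -/
theorem three_cycles_of (hC : CriterionCF) {n : ℕ} (T : Set (Equiv.Perm (Option (Fin n)))) :
    H 1 {w : List {p : Fin n × Fin n // p.1 < p.2} | (w.map fun p => cyc p.1.1 p.1.2).prod ∈ T} := by
  apply perm_result_le hC
  rintro ⟨⟨i, j⟩, hij⟩ p p' h
  simp only at hij
  simp only [cyc, Equiv.Perm.mul_apply] at h
  by_cases h1 : p = i
  · subst h1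
    simp only [Equiv.swap_apply_right, Equiv.swap_apply_left, Option.some.injEq] at h
    rw [← h]; exact hij.le
  · have e1 : (Equiv.swap none (some i)) (some p) = some p :=
      Equiv.swap_apply_of_ne_of_ne (by simp) (by simpa using h1)
    rw [e1] at h
    by_cases h2 : p = j
    · subst h2
      simp at h
    · have e2 : (Equiv.swap none (some j)) (some p) = some p :=
        Equiv.swap_apply_of_ne_of_ne (by simp) (by simpa using h2)
      rw [e2] at h
      simp only [Option.some.injEq] at h
      exact h.le

end Vale.Agent.H24.GSH.NCF
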